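import Vale.Agent.P335.Link

namespace Vale.Agent.Results.P335.KTV

open Vale.Agent.P335

theorem result : ∃ p : Polynomial ℕ, ∀ n : ℕ, 4 ≤ n → ∀ d : Fin n → ℕ, Nonempty (Omega d) →
    ∃ t : ℕ, IsLeast {t : ℕ | ∀ G : Omega d, tvDist d t G ≤ 1 / 4} t ∧ t ≤ p.eval n :=
  main

end Vale.Agent.Results.P335.KTV
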